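import Vale.Agent.P200E.Defs

/-! P200, general number of variables: definitions. -/

namespace Vale.Agent.P200E

open MvPolynomial

/-- f_0, ..., f_(c-1) is a regular sequence in K[x_0, ..., x_(N-1)]: multiplication by f_k is injective on S/(f_j : j < k). -/
def IsRegSeqG {K : Type*} [Field K] {c N : ℕ} (f : Fin c → MvPolynomial (Fin N) K) : Prop :=
  ∀ k p, f k * p ∈ Ideal.span (f '' {j | j < k}) → p ∈ Ideal.span (f '' {j | j < k})

/-- U is closed under adding exponents (the exponents of a monomial ideal). -/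
def Up {N : ℕ} (U : Set (Fin N →₀ ℕ)) : Prop := ∀ s t, s ∈ U → s ≤ t → t ∈ U

/-- number of exponents of degree d outside U. -/
noncomputable def cnt {N : ℕ} (U : Set (Fin N →₀ ℕ)) (d : ℕ) : ℕ := Set.ncard {s | s ∉ U ∧ s.degree = d}

/-- forget the last exponent. -/
noncomputable def res {N : ℕ} (s : Fin (N + 1) →₀ ℕ) : Fin N →₀ ℕ :=
  Finsupp.equivFunOnFinite.symm (fun i => s i.castSucc)

/-- exponents whose restriction lies in U j, j = last exponent. -/
def stack {N : ℕ} (U : ℕ → Set (Fin N →₀ ℕ)) : Set (Fin (N + 1) →₀ ℕ) := {s | res s ∈ U (s (Fin.last N))}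

/-- the ideal (I : l^j). -/
def colN {K : Type*} [Field K] {n : ℕ} (I : Ideal (MvPolynomial (Fin n) K)) (l : MvPolynomial (Fin n) K) :
    ℕ → Ideal (MvPolynomial (Fin n) K)
  | 0 => I
  | j + 1 => colonI (colN I l j) l

end Vale.Agent.P200E
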