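import Vale.Agent.P200G.Defs

/-! Modules GA1 (exists_linear_notMem), GA2 (dim_drop).
GA1: the linear forms form a K-vector space S_1; each P in T meets it in a proper subspace (some X i is not in P); a vector space over an
infinite field is not a finite union of proper subspaces (Subspace.biUnion_ne_univ_of_top_notMem or similar); linear form <-> Fin (N+1) -> K.
GA2: let T = minimal primes P of I (finite: Noetherian; Ideal.finite_minimalPrimes_of_isNoetherianRing) with some X i not in P; l from GA1.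
Let Q_0 < ... < Q_k be a chain of primes containing I + (l) (ringKrullDim (R/J) = krullDim of primes containing J: ringKrullDim_quotient).
Q_0 contains a minimal prime P of I (Ideal.exists_minimalPrimes_le).  If P in T then l in Q_0 not in P, so P < Q_0 and the chain extends
to length k+1 above I, so k+1 <= m+1.  If P contains all X i then P is maximal (quotient is K; or: contains the ideal (X_i), maximal),
so Q_0 = P and k = 0 <= m. -/

namespace Vale.Agent.P200E

open MvPolynomial

theorem GA1_aux {K : Type*} [Field K] [Infinite K] {N : ℕ} (T : Set (Ideal (MvPolynomial (Fin (N + 1)) K)))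
    (hT : T.Finite) (h : ∀ P ∈ T, ∃ i, X i ∉ P) :
    ∃ l : MvPolynomial (Fin (N + 1)) K, l.IsHomogeneous 1 ∧ ∀ P ∈ T, l ∉ P := by
  classical
  let φ : (Fin (N + 1) → K) →ₗ[K] MvPolynomial (Fin (N + 1)) K :=
    Fintype.linearCombination K (fun i => (X i : MvPolynomial (Fin (N + 1)) K))
  have hφ : ∀ c, φ c = ∑ i, c i • (X i : MvPolynomial (Fin (N + 1)) K) := fun c => rfl
  let V : Ideal (MvPolynomial (Fin (N + 1)) K) → Subspace K (Fin (N + 1) → K) :=
    fun P => (P.restrictScalars K).comap φ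
  have hs : (⊤ : Subspace K (Fin (N + 1) → K)) ∉ hT.toFinset.image V := by
    intro hmem
    obtain ⟨P, hP, hV⟩ := Finset.mem_image.1 hmem
    obtain ⟨i, hi⟩ := h P (hT.mem_toFinset.1 hP)
    refine hi ?_
    have h1 : Pi.single i (1 : K) ∈ V P := by
      rw [hV]
      exact Submodule.mem_top
    have h2 : φ (Pi.single i (1 : K)) ∈ P := h1
    have h3 : φ (Pi.single i (1 : K)) = X i := by
      rw [hφ, Finset.sum_eq_single i]
      · rw [Pi.single_eq_same, one_smul]
      · intro j _ hj
        rw [Pi.single_eq_of_ne hj, zero_smul]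
      · intro hj
        exact absurd (Finset.mem_univ i) hj
    rwa [h3] at h2
  have h1 := Subspace.biUnion_ne_univ_of_top_notMem hs
  obtain ⟨c, hc⟩ := (Set.ne_univ_iff_exists_notMem _).1 h1
  refine ⟨φ c, ?_, fun P hP hl => hc ?_⟩
  · rw [← mem_homogeneousSubmodule, hφ]
    refine Submodule.sum_mem _ fun i _ => Submodule.smul_mem _ _ ?_
    rw [mem_homogeneousSubmodule]
    exact isHomogeneous_X K i
  · simp only [Set.mem_iUnion]
    exact ⟨V P, Finset.mem_image_of_mem V (hT.mem_toFinset.2 hP), hl⟩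

theorem exists_linear_notMem {K : Type*} [Field K] [Infinite K] {N : ℕ} (T : Set (Ideal (MvPolynomial (Fin (N + 1)) K)))
    (hT : T.Finite) (h : ∀ P ∈ T, ∃ i, X i ∉ P) :
    ∃ l : MvPolynomial (Fin (N + 1)) K, l.IsHomogeneous 1 ∧ l ≠ 0 ∧ ∀ P ∈ T, l ∉ P := by
  obtain ⟨l, h1, h2⟩ := GA1_aux (insert ⊥ T) (hT.insert ⊥) (by
    intro P hP
    rcases Set.mem_insert_iff.1 hP with rfl | hP
    · refine ⟨0, fun h0 => ?_⟩
      exact X_ne_zero (0 : Fin (N + 1)) (Ideal.mem_bot.1 h0)
    · exact h P hP)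
  refine ⟨l, h1, ?_, fun P hP => h2 P (Set.mem_insert_of_mem _ hP)⟩
  rintro rfl
  exact h2 ⊥ (Set.mem_insert _ _) (Ideal.zero_mem _)

theorem GA2_sub {K : Type*} [Field K] {n : ℕ} (P : Ideal (MvPolynomial (Fin n) K))
    (hP : ∀ i, X i ∈ P) (q : MvPolynomial (Fin n) K) : q - C (constantCoeff q) ∈ P := by
  induction q using MvPolynomial.induction_on with
  | C a =>
    rw [constantCoeff_C, sub_self]
    exact P.zero_mem
  | add p q hp hq =>
    have h : p + q - C (constantCoeff (p + q)) =
        (p - C (constantCoeff p)) + (q - C (constantCoeff q)) := by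
      rw [map_add, map_add]
      ring
    rw [h]
    exact P.add_mem hp hq
  | mul_X p i _ =>
    rw [map_mul, constantCoeff_X, mul_zero, map_zero, sub_zero]
    exact P.mul_mem_left p (hP i)

theorem GA2_le {K : Type*} [Field K] {n : ℕ} {P P' : Ideal (MvPolynomial (Fin n) K)}
    (hP : ∀ i, X i ∈ P) (hle : P ≤ P') (hP' : P' ≠ ⊤) : P' ≤ P := by
  intro q hq
  have h1 := GA2_sub P hP q
  have h2 : C (constantCoeff q) ∈ P' := by
    have h3 := P'.sub_mem hq (hle h1)
    rwa [sub_sub_cancel] at h3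
  by_cases h0 : constantCoeff q = 0
  · rwa [h0, map_zero, sub_zero] at h1
  · exfalso
    refine hP' (Ideal.eq_top_of_isUnit_mem _ h2 ?_)
    exact (isUnit_iff_ne_zero.2 h0).map (C : K →+* MvPolynomial (Fin n) K)

theorem dim_drop {K : Type*} [Field K] [Infinite K] {N : ℕ} (m : ℕ) (I : Ideal (MvPolynomial (Fin (N + 1)) K))
    (hI : ringKrullDim (MvPolynomial (Fin (N + 1)) K ⧸ I) ≤ ((m + 1 : ℕ) : WithBot ℕ∞)) :
    ∃ l : MvPolynomial (Fin (N + 1)) K, l.IsHomogeneous 1 ∧ l ≠ 0 ∧
      ringKrullDim (MvPolynomial (Fin (N + 1)) K ⧸ (I ⊔ Ideal.span {l})) ≤ (m : WithBot ℕ∞) := by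
  have hfin : {P ∈ I.minimalPrimes | ∃ i, X i ∉ P}.Finite :=
    (I.finite_minimalPrimes_of_isNoetherianRing _).subset fun P hP => hP.1
  obtain ⟨l, h1, h2, h3⟩ := exists_linear_notMem _ hfin fun P hP => hP.2
  refine ⟨l, h1, h2, ?_⟩
  rw [ringKrullDim_quotient] at hI ⊢
  refine iSup_le fun p => ?_
  have hhead : (I ⊔ Ideal.span {l}) ≤ p.head.1.asIdeal := p.head.2
  have hl : l ∈ p.head.1.asIdeal := hhead (Ideal.mem_sup_right (Ideal.mem_span_singleton_self l))
  have hIh : I ≤ p.head.1.asIdeal := le_sup_left.trans hhead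
  have := p.head.1.isPrime
  obtain ⟨P, hP, hPle⟩ := Ideal.exists_minimalPrimes_le hIh
  by_cases hX : ∃ i, X i ∉ P
  · have hlP : l ∉ P := h3 P ⟨hP, hX⟩
    have hPp : P.IsPrime := hP.1.1
    let ι : PrimeSpectrum.zeroLocus (R := MvPolynomial (Fin (N + 1)) K) (I ⊔ Ideal.span {l} : Ideal _) →
        PrimeSpectrum.zeroLocus (R := MvPolynomial (Fin (N + 1)) K) I :=
      fun q => ⟨q.1, fun x hx => q.2 (Ideal.mem_sup_left hx)⟩
    have hι : StrictMono ι := fun a b hab => hab
    let P0 : PrimeSpectrum.zeroLocus (R := MvPolynomial (Fin (N + 1)) K) I :=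
      ⟨⟨P, hPp⟩, hP.1.2⟩
    have hlt : P0 < (p.map ι hι).head := by
      have h5 : P < p.head.1.asIdeal := lt_of_le_of_ne hPle fun h => hlP (h ▸ hl)
      exact h5
    have h6 := Order.LTSeries.length_le_krullDim ((p.map ι hι).cons P0 hlt)
    have h10 : ((p.map ι hι).cons P0 hlt).length = p.length + 1 := by
      show 0 + p.length + 1 = p.length + 1
      omega
    rw [h10] at h6
    have h7 : ((p.length + 1 : ℕ) : WithBot ℕ∞) ≤ ((m + 1 : ℕ) : WithBot ℕ∞) := by
      refine le_trans ?_ (h6.trans hI)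
      push_cast
      exact le_rfl
    have h8 : p.length + 1 ≤ m + 1 := by exact_mod_cast h7
    have h9 : p.length ≤ m := by omega
    exact_mod_cast h9
  · have hX' : ∀ i, X i ∈ P := fun i => by
      by_contra hi
      exact hX ⟨i, hi⟩
    have h0 : p.length = 0 := by
      by_contra hne
      have hlt : p.head < p.last := p.strictMono (by
        rw [Fin.lt_def]
        exact Nat.pos_of_ne_zero hne)
      have h4 : p.head.1.asIdeal < p.last.1.asIdeal := hlt
      exact absurd (GA2_le (fun i => hPle (hX' i)) h4.le p.last.1.isPrime.ne_top) (not_le_of_gt h4)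
    rw [h0]
    exact_mod_cast Nat.zero_le m

end Vale.Agent.P200E
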