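import Vale.Agent.P200G.Defs
import Vale.Agent.P200E.Base

/-! Module GB: base change of a regular sequence.  Use BASE_phi (apply a functional L -> K to the coefficients) of P200E/Base.lean:
p in I.map implies BASE_phi phi p in I for all phi; conversely if all BASE_phi phi p are in I then p is in I.map (p is the sum of
b times map (BASE_phi b* p) over finitely many members b of a K-basis of L); BASE_phi phi (map f * p) = f * BASE_phi phi p. -/

namespace Vale.Agent.P200E

open MvPolynomial

theorem GB_mem {K : Type*} [Field K] (L : Type*) [Field L] [Algebra K L] {n : ℕ}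
    {I : Ideal (MvPolynomial (Fin n) K)} {p : MvPolynomial (Fin n) L}
    (h : ∀ l : L →ₗ[K] K, BASE_phi L l p ∈ I) :
    p ∈ I.map (MvPolynomial.map (algebraMap K L) : MvPolynomial (Fin n) K →+* MvPolynomial (Fin n) L) := by
  classical
  obtain ⟨b, hb⟩ : ∃ b, b = Module.Basis.ofVectorSpace K L := ⟨_, rfl⟩
  obtain ⟨T, hT⟩ : ∃ T, T = p.support.biUnion fun s => (b.repr (coeff s p)).support := ⟨_, rfl⟩
  have h1 : p = ∑ t ∈ T, C (b t) * MvPolynomial.map (algebraMap K L) (BASE_phi L (b.coord t) p) := by
    ext s
    rw [coeff_sum]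
    simp only [coeff_C_mul, coeff_map, BASE_phi_coeff, Module.Basis.coord_apply]
    by_cases hs : s ∈ p.support
    · have h2 : (b.repr (coeff s p)).support ⊆ T := by
        rw [hT]
        exact Finset.subset_biUnion_of_mem (fun s => (b.repr (coeff s p)).support) hs
      rw [← Finset.sum_subset h2]
      · have h3 := b.linearCombination_repr (coeff s p)
        rw [Finsupp.linearCombination_apply, Finsupp.sum] at h3
        refine h3.symm.trans (Finset.sum_congr rfl fun t _ => ?_)
        rw [Algebra.smul_def, mul_comm]
      · intro t _ ht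
        rw [Finsupp.notMem_support_iff.1 ht, map_zero, mul_zero]
    · rw [notMem_support_iff.1 hs]
      simp
  rw [h1]
  exact Ideal.sum_mem _ fun t _ => Ideal.mul_mem_left _ _ (Ideal.mem_map_of_mem _ (h _))

theorem regSeq_baseChange {K : Type*} [Field K] (L : Type*) [Field L] [Algebra K L] {c N : ℕ}
    {f : Fin c → MvPolynomial (Fin N) K} (hr : IsRegSeqG f) :
    IsRegSeqG (fun i => MvPolynomial.map (algebraMap K L) (f i)) := by
  intro k p hp
  have h1 : Ideal.span ((fun i => MvPolynomial.map (algebraMap K L) (f i)) '' {j | j < k}) =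
      (Ideal.span (f '' {j | j < k})).map
        (MvPolynomial.map (algebraMap K L) : MvPolynomial (Fin N) K →+* MvPolynomial (Fin N) L) := by
    rw [Ideal.map_span, Set.image_image]
  rw [h1] at hp ⊢
  refine GB_mem L fun l => hr k _ ?_
  rw [← BASE_phi_mul]
  exact BASE_phi_mem L l hp

end Vale.Agent.P200E
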