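import Vale.Agent.P200G.Defs
import Vale.Agent.P200E.HFa

/-! Module GF: iterate HF_exact (induction on d generalizing I; colN (colonI I l) l j = colN I l (j+1); d = 0: HF_deg_zero). -/

namespace Vale.Agent.P200E

open MvPolynomial

variable {K : Type*} [Field K] {n : ℕ}

theorem GF_colon_mono {I I' : Ideal (MvPolynomial (Fin n) K)} (h : I ≤ I')
    (l : MvPolynomial (Fin n) K) : colonI I l ≤ colonI I' l := fun _ hp => h hp

theorem GF_colN_succ (I : Ideal (MvPolynomial (Fin n) K)) (l : MvPolynomial (Fin n) K) (j : ℕ) :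
    colN (colonI I l) l j = colN I l (j + 1) := by
  induction j with
  | zero => rfl
  | succ j ih =>
    show colonI (colN (colonI I l) l j) l = colonI (colN I l (j + 1)) l
    rw [ih]

theorem colN_homog {I : Ideal (MvPolynomial (Fin n) K)} (hI : IsHomog I) {l : MvPolynomial (Fin n) K}
    (hl : l.IsHomogeneous 1) (j : ℕ) : IsHomog (colN I l j) := by
  induction j with
  | zero => exact hI
  | succ j ih => exact homog_colon ih hl

theorem colN_le_succ (I : Ideal (MvPolynomial (Fin n) K)) (l : MvPolynomial (Fin n) K) (j : ℕ) :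
    colN I l j ≤ colN I l (j + 1) :=
  fun _ hp => Ideal.mul_mem_left _ l hp

theorem colN_mono {I I' : Ideal (MvPolynomial (Fin n) K)} (h : I ≤ I') (l : MvPolynomial (Fin n) K) (j : ℕ) :
    colN I l j ≤ colN I' l j := by
  induction j with
  | zero => exact h
  | succ j ih => exact GF_colon_mono ih l

theorem HF_filtration {I : Ideal (MvPolynomial (Fin n) K)} (hI : IsHomog I) {l : MvPolynomial (Fin n) K}
    (hl : l.IsHomogeneous 1) (d : ℕ) :
    HF I d = ∑ j ∈ Finset.range (d + 1), HF (colN I l j ⊔ Ideal.span {l}) (d - j) := by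
  induction d generalizing I with
  | zero =>
    rw [zero_add, Finset.sum_range_one, Nat.sub_zero]
    exact (HF_deg_zero hI hl).symm
  | succ d ih =>
    have h1 : ∑ j ∈ Finset.range (d + 1),
        HF (colN (colonI I l) l j ⊔ Ideal.span {l}) (d - j) =
        ∑ j ∈ Finset.range (d + 1), HF (colN I l (j + 1) ⊔ Ideal.span {l}) (d + 1 - (j + 1)) :=
      Finset.sum_congr rfl fun j _ => by rw [GF_colN_succ, Nat.add_sub_add_right]
    rw [HF_exact hI hl d, ih (homog_colon hI hl), h1, add_comm]
    exact (Finset.sum_range_succ'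
      (fun j => HF (colN I l j ⊔ Ideal.span {l}) (d + 1 - j)) (d + 1)).symm

end Vale.Agent.P200E
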