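import Vale.Agent.P200G.Defs

/-! Module GM: Hilbert function of a monomial ideal = number of standard monomials (compare P200E/Mono.lean). -/

namespace Vale.Agent.P200E

open MvPolynomial

private theorem GM_mem (K : Type*) [Field K] {N : ℕ} {U : Set (Fin N →₀ ℕ)} (hU : Up U)
    (p : MvPolynomial (Fin N) K) :
    p ∈ Ideal.span ((fun s => monomial s (1 : K)) '' U) ↔ ∀ s ∈ p.support, s ∈ U := by
  rw [mem_ideal_span_monomial_image]
  constructor
  · intro h s hs
    obtain ⟨t, ht, hts⟩ := h s hs
    exact hU t s ht hts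
  · intro h s hs
    exact ⟨s, h s hs, le_rfl⟩

theorem HF_span_up (K : Type*) [Field K] {N : ℕ} (U : Set (Fin N →₀ ℕ)) (hU : Up U) (d : ℕ) :
    HF (Ideal.span ((fun s => monomial s (1 : K)) '' U)) d = cnt U d := by
  classical
  have hfin : {s : Fin N →₀ ℕ | s ∉ U ∧ s.degree = d}.Finite := by
    refine (Finsupp.finite_of_degree_le d).subset ?_
    rintro s ⟨-, hs⟩
    exact hs.le
  have : Finite {s : Fin N →₀ ℕ | s ∉ U ∧ s.degree = d} := hfin.to_subtype
  have : Fintype {s : Fin N →₀ ℕ | s ∉ U ∧ s.degree = d} := Fintype.ofFinite _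
  set J := Ideal.span ((fun s => monomial s (1 : K)) '' U) with hJ
  let N' : ({s : Fin N →₀ ℕ | s ∉ U ∧ s.degree = d} → K) →ₗ[K] MvPolynomial (Fin N) K :=
    Fintype.linearCombination K fun s : {s : Fin N →₀ ℕ | s ∉ U ∧ s.degree = d} => monomial s.1 (1 : K)
  have hN : ∀ c, N' c = ∑ s : {s : Fin N →₀ ℕ | s ∉ U ∧ s.degree = d}, c s • (monomial s.1 (1 : K)) :=
    fun c => Fintype.linearCombination_apply K _ c
  have hcoeff : ∀ c s, coeff s.1 (N' c) = c s := by
    intro c s
    rw [hN, coeff_sum, Finset.sum_eq_single s]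
    · simp
    · intro t _ ht
      rw [coeff_smul, coeff_monomial, if_neg, smul_zero]
      intro h
      exact ht (Subtype.ext h)
    · intro h
      exact absurd (Finset.mem_univ s) h
  let L : ({s : Fin N →₀ ℕ | s ∉ U ∧ s.degree = d} → K) →ₗ[K] (MvPolynomial (Fin N) K ⧸ J) :=
    (Ideal.Quotient.mkₐ K J).toLinearMap ∘ₗ N'
  have hL : ∀ c, L c = Ideal.Quotient.mkₐ K J (N' c) := fun c => rfl
  have hinj : Function.Injective L := by
    rw [← LinearMap.ker_eq_bot, LinearMap.ker_eq_bot']
    intro c hc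
    rw [hL, Ideal.Quotient.mkₐ_eq_mk, Ideal.Quotient.eq_zero_iff_mem, hJ, GM_mem K hU] at hc
    funext s
    by_contra hne
    have h1 : s.1 ∈ (N' c).support := by
      rw [mem_support_iff, hcoeff]
      exact hne
    exact s.2.1 (hc _ h1)
  have hrange : LinearMap.range L
      = (homogeneousSubmodule (Fin N) K d).map (Ideal.Quotient.mkₐ K J).toLinearMap := by
    apply le_antisymm
    · rintro _ ⟨c, rfl⟩
      refine ⟨N' c, ?_, rfl⟩
      rw [hN]
      refine Submodule.sum_mem _ fun s _ => Submodule.smul_mem _ _ ?_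
      exact isHomogeneous_monomial _ s.2.2
    · rintro _ ⟨p, hp, rfl⟩
      have hp' : p.IsHomogeneous d := hp
      rw [AlgHom.toLinearMap_apply, p.as_sum, map_sum]
      refine Submodule.sum_mem _ fun s hs => ?_
      have e1 : monomial s (coeff s p) = coeff s p • monomial s (1 : K) := by
        rw [smul_monomial, smul_eq_mul, mul_one]
      rw [e1, map_smul]
      refine Submodule.smul_mem _ _ ?_
      by_cases hM : s ∈ U
      · have h2 : Ideal.Quotient.mkₐ K J (monomial s (1 : K)) = 0 := by
          rw [Ideal.Quotient.mkₐ_eq_mk, Ideal.Quotient.eq_zero_iff_mem]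
          exact Ideal.subset_span ⟨s, hM, rfl⟩
        rw [h2]
        exact Submodule.zero_mem _
      · have h3 : s.degree = d := by
          have h4 := hp' (mem_support_iff.1 hs)
          rw [Finsupp.degree_eq_weight_one]
          exact h4
        refine ⟨Pi.single ⟨s, hM, h3⟩ 1, ?_⟩
        rw [hL, hN]
        congr 1
        rw [Finset.sum_eq_single (⟨s, hM, h3⟩ : {s : Fin N →₀ ℕ | s ∉ U ∧ s.degree = d})]
        · simp
        · intro t _ ht
          rw [Pi.single_eq_of_ne ht, zero_smul]
        · intro h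
          exact absurd (Finset.mem_univ _) h
  unfold HF cnt
  rw [← hrange, LinearMap.finrank_range_of_inj hinj, Module.finrank_fintype_fun_eq_card,
    ← Nat.card_coe_set_eq, Nat.card_eq_fintype_card]

end Vale.Agent.P200E
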