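import Vale.Agent.P200G.Defs
import Vale.Agent.P200E.RegPrim

/-! Modules GK (dim_sub), GR (dim_regSeq: generalise REG_dim of P200E/RegPrim.lean), GP (prim_of_dim: second half of the proof of
prim_of_regSeq in P200E/RegPrim.lean).
GK: the composite S_(N+1) -> S_N -> S_N / s(I) is surjective and kills I and l, so S_(N+1)/(I + (l)) -> S_N / s(I) is surjective:
ringKrullDim_le_of_surjective. -/

namespace Vale.Agent.P200E

open MvPolynomial

theorem dim_sub {K : Type*} [Field K] {N : ℕ} {l : MvPolynomial (Fin (N + 1)) K} (σ : Sub l)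
    (I : Ideal (MvPolynomial (Fin (N + 1)) K)) :
    ringKrullDim (MvPolynomial (Fin N) K ⧸ I.map σ.s) ≤
      ringKrullDim (MvPolynomial (Fin (N + 1)) K ⧸ (I ⊔ Ideal.span {l})) := by
  have hk : ∀ a ∈ I ⊔ Ideal.span {l},
      ((Ideal.Quotient.mk (I.map σ.s)).comp (σ.s : MvPolynomial (Fin (N + 1)) K →+*
        MvPolynomial (Fin N) K)) a = 0 := by
    intro a ha
    have hle : I ⊔ Ideal.span {l} ≤ RingHom.ker ((Ideal.Quotient.mk (I.map σ.s)).comp
        (σ.s : MvPolynomial (Fin (N + 1)) K →+* MvPolynomial (Fin N) K)) := by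
      refine sup_le ?_ ?_
      · intro b hb
        rw [RingHom.mem_ker, RingHom.comp_apply, Ideal.Quotient.eq_zero_iff_mem]
        exact Ideal.mem_map_of_mem σ.s hb
      · rw [Ideal.span_le, Set.singleton_subset_iff, SetLike.mem_coe, RingHom.mem_ker,
          RingHom.comp_apply, Ideal.Quotient.eq_zero_iff_mem]
        have h0 : σ.s l = 0 := (σ.ker l).2 (Ideal.mem_span_singleton_self l)
        show σ.s l ∈ I.map σ.s
        rw [h0]
        exact Ideal.zero_mem _
    exact hle ha
  refine ringKrullDim_le_of_surjective (Ideal.Quotient.lift (I ⊔ Ideal.span {l}) _ hk) ?_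
  intro y
  obtain ⟨q, rfl⟩ := Ideal.Quotient.mk_surjective y
  refine ⟨Ideal.Quotient.mk _ (σ.t q), ?_⟩
  rw [Ideal.Quotient.lift_mk, RingHom.comp_apply]
  show Ideal.Quotient.mk (I.map σ.s) (σ.s (σ.t q)) = _
  rw [σ.st]

private theorem GR_aux {K : Type*} [Field K] {c N : ℕ} (f : Fin c → MvPolynomial (Fin N) K)
    (hr : IsRegSeqG f) : ∀ k : ℕ, k ≤ c →
      ringKrullDim (MvPolynomial (Fin N) K ⧸ Ideal.span (f '' {j | (j : ℕ) < k})) + (k : ℕ) ≤ (N : ℕ) := by
  intro k
  induction k with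
  | zero =>
    intro _
    rw [Nat.cast_zero, add_zero]
    refine (ringKrullDim_quotient_le _).trans ?_
    rw [MvPolynomial.ringKrullDim_of_isNoetherianRing, ringKrullDim_eq_zero_of_field]
    simp
  | succ k ih =>
    intro hk
    have h1 := ih (by omega)
    have hset : {j : Fin c | j < (⟨k, hk⟩ : Fin c)} = {j : Fin c | (j : ℕ) < k} := by
      ext j
      exact Fin.lt_def
    have hle : Ideal.span (f '' {j | (j : ℕ) < k}) ≤ Ideal.span (f '' {j | (j : ℕ) < k + 1}) := by
      refine Ideal.span_mono (Set.image_mono ?_)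
      intro j hj
      exact Nat.lt_succ_of_lt hj
    have h2 : ringKrullDim (MvPolynomial (Fin N) K ⧸ Ideal.span (f '' {j | (j : ℕ) < k + 1})) + 1
        ≤ ringKrullDim (MvPolynomial (Fin N) K ⧸ Ideal.span (f '' {j | (j : ℕ) < k})) := by
      refine ringKrullDim_succ_le_of_surjective (Ideal.Quotient.factor hle)
        (Ideal.Quotient.factor_surjective hle) (r := Ideal.Quotient.mk _ (f ⟨k, hk⟩)) ?_ ?_
      · rw [mem_nonZeroDivisors_iff_right]
        intro x hx
        obtain ⟨p, rfl⟩ := Ideal.Quotient.mk_surjective x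
        rw [← map_mul, Ideal.Quotient.eq_zero_iff_mem] at hx
        rw [Ideal.Quotient.eq_zero_iff_mem]
        have h3 := hr ⟨k, hk⟩ p
        rw [hset] at h3
        exact h3 (by rwa [mul_comm])
      · rw [Ideal.Quotient.factor_mk, Ideal.Quotient.eq_zero_iff_mem]
        exact Ideal.subset_span ⟨⟨k, hk⟩, Nat.lt_succ_self k, rfl⟩
    calc ringKrullDim (MvPolynomial (Fin N) K ⧸ Ideal.span (f '' {j | (j : ℕ) < k + 1})) + ((k + 1 : ℕ) : WithBot ℕ∞)
        = (ringKrullDim (MvPolynomial (Fin N) K ⧸ Ideal.span (f '' {j | (j : ℕ) < k + 1})) + 1) + (k : ℕ) := by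
          rw [Nat.cast_add, Nat.cast_one, add_assoc, add_comm (1 : WithBot ℕ∞)]
      _ ≤ ringKrullDim (MvPolynomial (Fin N) K ⧸ Ideal.span (f '' {j | (j : ℕ) < k})) + (k : ℕ) := by
          gcongr
      _ ≤ N := h1

theorem dim_regSeq {K : Type*} [Field K] {c N : ℕ} (f : Fin c → MvPolynomial (Fin N) K) (hr : IsRegSeqG f) :
    ringKrullDim (MvPolynomial (Fin N) K ⧸ Ideal.span (Set.range f)) + (c : ℕ) ≤ (N : ℕ) := by
  have h1 := GR_aux f hr c le_rfl
  have h2 : f '' {j | (j : ℕ) < c} = Set.range f := by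
    rw [← Set.image_univ]
    congr 1
    ext j
    simp
  rwa [h2] at h1

theorem prim_of_dim {K : Type*} [Field K] {n : ℕ} (f : Fin n → MvPolynomial (Fin n) K)
    (hf : ∀ i, (f i).IsHomogeneous 2)
    (hd : ringKrullDim (MvPolynomial (Fin n) K ⧸ Ideal.span (Set.range f)) ≤ 0) : Prim f := by
  have hK : Ring.KrullDimLE 0 (MvPolynomial (Fin n) K ⧸ Ideal.span (Set.range f)) := by
    rw [Ring.krullDimLE_iff]
    exact_mod_cast hd
  have hA : IsArtinianRing (MvPolynomial (Fin n) K ⧸ Ideal.span (Set.range f)) :=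
    isArtinianRing_iff_krullDimLE_zero.2 hK
  obtain ⟨D, hD⟩ := IsArtinian.monotone_stabilizes
    (R := MvPolynomial (Fin n) K ⧸ Ideal.span (Set.range f))
    (M := MvPolynomial (Fin n) K ⧸ Ideal.span (Set.range f))
    ⟨fun k => OrderDual.toDual (((idealOfVars (Fin n) K).map (Ideal.Quotient.mk (Ideal.span (Set.range f)))) ^ k),
      fun a b hab => Ideal.pow_le_pow_right hab⟩
  have hD1 : ((idealOfVars (Fin n) K).map (Ideal.Quotient.mk (Ideal.span (Set.range f)))) ^ D
      = ((idealOfVars (Fin n) K).map (Ideal.Quotient.mk (Ideal.span (Set.range f)))) ^ (D + 1) :=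
    OrderDual.toDual.injective (hD (D + 1) (Nat.le_succ D))
  refine ⟨D, fun p hp => ?_⟩
  have h1 : p ∈ idealOfVars (Fin n) K ^ D := by
    rw [mem_pow_idealOfVars_iff]
    intro x hx
    have := hp (mem_support_iff.1 hx)
    have h0 : Finsupp.degree x = Finsupp.weight 1 x := by
      rw [Finsupp.degree_eq_weight_one]
      rfl
    rw [h0, this]
  have h2 : Ideal.Quotient.mk (Ideal.span (Set.range f)) p ∈
      (idealOfVars (Fin n) K ^ (D + 1)).map (Ideal.Quotient.mk (Ideal.span (Set.range f))) := by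
    rw [Ideal.map_pow, ← hD1, ← Ideal.map_pow]
    exact Ideal.mem_map_of_mem _ h1
  rw [Ideal.mem_map_iff_of_surjective _ Ideal.Quotient.mk_surjective] at h2
  obtain ⟨a, ha, hap⟩ := h2
  rw [Ideal.Quotient.eq] at hap
  have h3 := REG_homog f hf _ hap D
  have h4 : homogeneousComponent D a = 0 := by
    refine homogeneousComponent_eq_zero' D a fun x hx => ?_
    rw [mem_pow_idealOfVars_iff] at ha
    have := ha x hx
    omega
  have h5 : homogeneousComponent D p = p := by
    rw [homogeneousComponent_of_mem (n := D) (m := D) hp, if_pos rfl]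
  rw [map_sub, h4, h5, zero_sub] at h3
  exact neg_mem_iff.1 h3

end Vale.Agent.P200E
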