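import Vale.Agent.P200G.Defs

/-! Modules GS1 (stack_up, stack_mono, stack_sq) and GS2 (stack_cnt). -/

namespace Vale.Agent.P200E

theorem GS1_res_apply {N : ℕ} (s : Fin (N + 1) →₀ ℕ) (i : Fin N) : res s i = s i.castSucc := rfl

theorem GS1_res_mono {N : ℕ} {s t : Fin (N + 1) →₀ ℕ} (h : s ≤ t) : res s ≤ res t :=
  fun i => h i.castSucc

theorem stack_up {N : ℕ} (U : ℕ → Set (Fin N →₀ ℕ)) (hU : ∀ j, Up (U j)) (hm : ∀ j, U j ⊆ U (j + 1)) :
    Up (stack U) := by
  intro s t hs hst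
  have hmono : Monotone U := monotone_nat_of_le_succ hm
  have h1 : res s ∈ U (t (Fin.last N)) := hmono (hst (Fin.last N)) hs
  exact hU _ (res s) (res t) h1 (GS1_res_mono hst)

theorem stack_mono {N : ℕ} (U V : ℕ → Set (Fin N →₀ ℕ)) (h : ∀ j, U j ⊆ V j) : stack U ⊆ stack V :=
  fun _ hs => h _ hs

theorem stack_sq {N : ℕ} (U : ℕ → Set (Fin N →₀ ℕ)) (i : Fin N) (h : Finsupp.single i 2 ∈ U 0) :
    Finsupp.single i.castSucc 2 ∈ stack U := by
  have h1 : res (Finsupp.single i.castSucc 2) = Finsupp.single i 2 := by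
    ext j
    rw [GS1_res_apply, Finsupp.single_apply, Finsupp.single_apply]
    simp
  have h2 : (Finsupp.single i.castSucc 2 : Fin (N + 1) →₀ ℕ) (Fin.last N) = 0 := by
    rw [Finsupp.single_apply, if_neg (Fin.castSucc_lt_last i).ne]
  show res (Finsupp.single i.castSucc 2) ∈
    U ((Finsupp.single i.castSucc 2 : Fin (N + 1) →₀ ℕ) (Fin.last N))
  rw [h1, h2]
  exact h

private theorem GS2_deg {N : ℕ} (s : Fin (N + 1) →₀ ℕ) :
    s.degree = (res s).degree + s (Fin.last N) := by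
  rw [Finsupp.degree_eq_sum, Finsupp.degree_eq_sum, Fin.sum_univ_castSucc]
  rfl

private theorem GS2_fin {M : ℕ} (P : Set (Fin M →₀ ℕ)) (e : ℕ) :
    {s | s ∉ P ∧ s.degree = e}.Finite :=
  (Finsupp.finite_of_degree_le (σ := Fin M) e).subset fun _ hs => hs.2.le

private theorem GS2_ext {N : ℕ} {s t : Fin (N + 1) →₀ ℕ} (h : res s = res t)
    (hl : s (Fin.last N) = t (Fin.last N)) : s = t := by
  ext i
  refine Fin.lastCases hl (fun j => ?_) i
  have := DFunLike.congr_fun h j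
  exact this

private theorem GS2_res {N : ℕ} (t : Fin N →₀ ℕ) (j : ℕ) :
    ∃ s : Fin (N + 1) →₀ ℕ, res s = t ∧ s (Fin.last N) = j := by
  refine ⟨Finsupp.equivFunOnFinite.symm (Fin.snoc (α := fun _ => ℕ) t j), ?_, ?_⟩
  · ext i
    show (Fin.snoc (α := fun _ => ℕ) t j : Fin (N + 1) → ℕ) i.castSucc = t i
    rw [Fin.snoc_castSucc]
  · show (Fin.snoc (α := fun _ => ℕ) t j : Fin (N + 1) → ℕ) (Fin.last N) = j
    rw [Fin.snoc_last]

theorem stack_cnt {N : ℕ} (U : ℕ → Set (Fin N →₀ ℕ)) (d : ℕ) :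
    cnt (stack U) d = ∑ j ∈ Finset.range (d + 1), cnt (U j) (d - j) := by
  classical
  unfold cnt
  have hA := GS2_fin (stack U) d
  rw [Set.ncard_eq_toFinset_card _ hA]
  rw [Finset.card_eq_sum_card_fiberwise (f := fun s : Fin (N + 1) →₀ ℕ => s (Fin.last N))
    (t := Finset.range (d + 1))]
  · refine Finset.sum_congr rfl fun j hj => ?_
    have hj' : j ≤ d := Nat.lt_succ_iff.1 (Finset.mem_range.1 hj)
    rw [← Set.ncard_coe_finset]
    refine Set.ncard_congr (fun s _ => res s) ?_ ?_ ?_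
    · intro s hs
      simp only [Finset.coe_filter, Set.Finite.mem_toFinset, Set.mem_ofPred_eq] at hs
      obtain ⟨⟨h1, h2⟩, h3⟩ := hs
      refine ⟨fun h => h1 ?_, ?_⟩
      · show res s ∈ U (s (Fin.last N))
        rw [h3]
        exact h
      · have := GS2_deg s
        omega
    · intro s t hs ht hst
      simp only [Finset.coe_filter, Set.Finite.mem_toFinset, Set.mem_ofPred_eq] at hs ht
      exact GS2_ext hst (hs.2.trans ht.2.symm)
    · intro t ht
      obtain ⟨s, hs1, hs2⟩ := GS2_res t j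
      refine ⟨s, ?_, hs1⟩
      simp only [Finset.coe_filter, Set.Finite.mem_toFinset, Set.mem_ofPred_eq]
      refine ⟨⟨fun h => ht.1 ?_, ?_⟩, hs2⟩
      · have h' : res s ∈ U (s (Fin.last N)) := h
        rwa [hs1, hs2] at h'
      · have h3 := ht.2
        rw [GS2_deg, hs1, hs2, h3]
        omega
  · intro s hs
    have h1 : s ∉ stack U ∧ s.degree = d := by simpa using hs
    have h2 := GS2_deg s
    rw [Finset.coe_range, Set.mem_Iio]
    show s (Fin.last N) < d + 1
    omega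

end Vale.Agent.P200E
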