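import Vale.Agent.P200G.Defs
import Vale.Agent.P200E.KK

/-! Module GU: canonical upper set of a growth function.  seg c r k := a colex initial segment of r-sets of size k (kk_initSeg, choose);
Phi h = all exponents s which are not the indicator of a set in seg c d (h d) for any d.  Initial segments of the same r are nested
(Finset.Colex.IsInitSeg.total), so h' <= h gives Phi h contained in Phi h'.  Up: shadow of seg (d+1) is an initial segment of size at most h d
(Finset.kruskal_katona + IsInitSeg.shadow), so contained in seg d (compare P200E/Complex.lean and MONO_up in P200E/Mono.lean).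
cnt (Phi h) d = card (seg c d (h d)) = h d. -/

namespace Vale.Agent.P200E

open Finset

private noncomputable def GU_ind {n : ℕ} (A : Finset (Fin n)) : Fin n →₀ ℕ :=
  Finsupp.indicator A fun _ _ => 1

private theorem GU_ind_apply {n : ℕ} (A : Finset (Fin n)) (i : Fin n) :
    GU_ind A i = if i ∈ A then 1 else 0 := by
  unfold GU_ind
  rw [Finsupp.indicator_apply]
  split_ifs <;> rfl

private theorem GU_ind_inj {n : ℕ} {A B : Finset (Fin n)} (h : GU_ind A = GU_ind B) :
    A = B := by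
  ext i
  have h1 := DFunLike.congr_fun h i
  rw [GU_ind_apply, GU_ind_apply] at h1
  by_cases hA : i ∈ A <;> by_cases hB : i ∈ B <;> simp [hA, hB] at h1 ⊢

private theorem GU_degree {n : ℕ} (A : Finset (Fin n)) : (GU_ind A).degree = A.card := by
  rw [Finsupp.degree_eq_sum]
  simp [GU_ind_apply]

private theorem GU_sub {n : ℕ} {D : ℕ → Finset (Finset (Fin n))}
    (hD : ∀ d, ((D d : Finset (Finset (Fin n))) : Set (Finset (Fin n))).Sized d)
    (hsh : ∀ d, (D (d + 1)).shadow ⊆ D d) (k : ℕ) :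
    ∀ (d : ℕ) (A B : Finset (Fin n)), A ∈ D d → B ⊆ A → (A \ B).card = k → B ∈ D B.card := by
  induction k with
  | zero =>
    intro d A B hA hBA hk
    have h1 : A ⊆ B := Finset.sdiff_eq_empty_iff_subset.1 (Finset.card_eq_zero.1 hk)
    have h2 : B = A := Finset.Subset.antisymm hBA h1
    have h3 : A.card = d := hD d hA
    rw [h2, h3]
    exact hA
  | succ k ih =>
    intro d A B hA hBA hk
    obtain ⟨a, ha⟩ : (A \ B).Nonempty := Finset.card_pos.1 (by omega)
    have haA : a ∈ A := (Finset.mem_sdiff.1 ha).1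
    have haB : a ∉ B := (Finset.mem_sdiff.1 ha).2
    have h3 : A.card = d := hD d hA
    obtain ⟨d', rfl⟩ : ∃ d', d = d' + 1 := by
      refine ⟨d - 1, ?_⟩
      have : 0 < A.card := Finset.card_pos.2 ⟨a, haA⟩
      omega
    have h4 : A.erase a ∈ D d' := hsh d' (Finset.erase_mem_shadow hA haA)
    refine ih d' (A.erase a) B h4 (fun x hx => ?_) ?_
    · exact Finset.mem_erase.2 ⟨fun h => haB (h ▸ hx), hBA hx⟩
    · have h5 : A.erase a \ B = (A \ B).erase a := by
        ext x
        simp only [Finset.mem_sdiff, Finset.mem_erase]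
        tauto
      rw [h5, Finset.card_erase_of_mem ha, hk]
      rfl

private def GU_M {n : ℕ} (D : ℕ → Finset (Finset (Fin n))) : Set (Fin n →₀ ℕ) :=
  {s | ¬ ∃ d, ∃ A ∈ D d, s = GU_ind A}

private theorem GU_up {n : ℕ} {D : ℕ → Finset (Finset (Fin n))}
    (hD : ∀ d, ((D d : Finset (Finset (Fin n))) : Set (Finset (Fin n))).Sized d)
    (hsh : ∀ d, (D (d + 1)).shadow ⊆ D d) {s t : Fin n →₀ ℕ} (hs : s ∈ GU_M D) (hst : s ≤ t) :
    t ∈ GU_M D := by
  rintro ⟨d, A, hA, ht⟩
  apply hs
  classical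
  set B : Finset (Fin n) := A.filter fun i => s i = 1 with hB
  have hBA : B ⊆ A := Finset.filter_subset _ _
  refine ⟨B.card, B, GU_sub hD hsh _ d A B hA hBA rfl, ?_⟩
  ext i
  have h1 := hst i
  rw [ht, GU_ind_apply] at h1
  rw [GU_ind_apply]
  by_cases hi : i ∈ A
  · rw [if_pos hi] at h1
    by_cases h2 : s i = 1
    · have hiB : i ∈ B := Finset.mem_filter.2 ⟨hi, h2⟩
      rw [if_pos hiB, h2]
    · have hiB : i ∉ B := fun h => h2 (Finset.mem_filter.1 h).2
      rw [if_neg hiB]
      omega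
  · rw [if_neg hi] at h1
    have hiB : i ∉ B := fun h => hi (hBA h)
    rw [if_neg hiB]
    omega

open Classical in
private noncomputable def GU_seg (c r k : ℕ) : Finset (Finset (Fin c)) :=
  if h : k ≤ c.choose r then (kk_initSeg c r k h).choose else ∅

private theorem GU_seg_spec {c r k : ℕ} (h : k ≤ c.choose r) :
    Finset.Colex.IsInitSeg (GU_seg c r k) r ∧ (GU_seg c r k).card = k := by
  unfold GU_seg
  rw [dif_pos h]
  exact (kk_initSeg c r k h).choose_spec

theorem exists_canonical (c : ℕ) :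
    ∃ Φ : (ℕ → ℕ) → Set (Fin c →₀ ℕ), ∀ h : ℕ → ℕ, (∀ d, G c d (h d) (h (d + 1))) →
      Up (Φ h) ∧ (∀ i, Finsupp.single i 2 ∈ Φ h) ∧ (∀ d, cnt (Φ h) d = h d) ∧
      ∀ h' : ℕ → ℕ, (∀ d, G c d (h' d) (h' (d + 1))) → (∀ d, h' d ≤ h d) → Φ h ⊆ Φ h' := by
  refine ⟨fun h => GU_M fun d => GU_seg c d (h d), fun h hG => ?_⟩
  have hsp : ∀ d, Finset.Colex.IsInitSeg (GU_seg c d (h d)) d ∧ (GU_seg c d (h d)).card = h d :=
    fun d => GU_seg_spec (hG d).1
  have hD : ∀ d, ((GU_seg c d (h d) : Finset (Finset (Fin c))) : Set (Finset (Fin c))).Sized d :=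
    fun d => (hsp d).1.1
  have hsh : ∀ d, (GU_seg c (d + 1) (h (d + 1))).shadow ⊆ GU_seg c d (h d) := by
    intro d
    obtain ⟨F, hF, hFc, hFs⟩ := (hG d).2
    have h1 := Finset.kruskal_katona hF
      (by rw [(hsp (d + 1)).2, hFc] : (GU_seg c (d + 1) (h (d + 1))).card ≤ F.card) (hsp (d + 1)).1
    have h2 := (hsp (d + 1)).1.shadow
    rw [Nat.add_sub_cancel] at h2
    exact KK2_nested h2 (hsp d).1 (by rw [(hsp d).2]; exact h1.trans hFs)
  refine ⟨fun s t hs hst => GU_up (D := fun d => GU_seg c d (h d)) hD hsh hs hst, ?_, ?_, ?_⟩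
  · rintro i ⟨d, A, _, hs⟩
    have h1 := DFunLike.congr_fun hs i
    rw [GU_ind_apply, Finsupp.single_eq_same] at h1
    split_ifs at h1
    all_goals omega
  · intro d
    unfold cnt
    have h1 : {s : Fin c →₀ ℕ | s ∉ (GU_M fun d => GU_seg c d (h d)) ∧ s.degree = d} =
        GU_ind '' ((GU_seg c d (h d) : Finset (Finset (Fin c))) : Set (Finset (Fin c))) := by
      ext s
      constructor
      · rintro ⟨h2, h3⟩
        have h4 : ∃ d, ∃ A ∈ GU_seg c d (h d), s = GU_ind A := not_not.mp h2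
        obtain ⟨e, A, hA, rfl⟩ := h4
        have h5 : A.card = e := hD e hA
        rw [GU_degree, h5] at h3
        subst h3
        exact ⟨A, hA, rfl⟩
      · rintro ⟨A, hA, rfl⟩
        refine ⟨fun h2 => h2 ⟨d, A, hA, rfl⟩, ?_⟩
        rw [GU_degree]
        exact hD d hA
    rw [h1, Set.ncard_image_of_injective _ (fun A B hAB => GU_ind_inj hAB), Set.ncard_coe_finset]
    exact (hsp d).2
  · intro h' hG' hle s hs
    rintro ⟨d, A, hA, rfl⟩
    apply hs
    have hsp' := GU_seg_spec (hG' d).1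
    refine ⟨d, A, KK2_nested hsp'.1 (hsp d).1 (by rw [hsp'.2, (hsp d).2]; exact hle d) hA, rfl⟩

end Vale.Agent.P200E
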