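import Vale.Agent.P200G.GM
import Vale.Agent.P200G.GU
import Vale.Agent.P200G.GS
import Vale.Agent.P200G.GF
import Vale.Agent.P200G.GA
import Vale.Agent.P200G.GR
import Vale.Agent.P200G.GB
import Vale.Agent.P200E.Final

/-! P200: induction on the number of extra variables. -/

namespace Vale.Agent.P200E

open MvPolynomial

/-- the statement of the induction, for N variables of which m are free. -/
def IndStmt (K : Type*) [Field K] (c m N : ℕ) (hcN : c ≤ N) : Prop :=
  ∀ (f : Fin c → MvPolynomial (Fin N) K), (∀ i, (f i).IsHomogeneous 2) →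
    ringKrullDim (MvPolynomial (Fin N) K ⧸ Ideal.span (Set.range f)) ≤ (m : WithBot ℕ∞) →
    (∀ i, 4 ≤ i.val → Splits2 (f i)) →
    ∃ Φ : Ideal (MvPolynomial (Fin N) K) → Set (Fin N →₀ ℕ),
      ∀ I, IsHomog I → (∀ i, f i ∈ I) →
        Up (Φ I) ∧ (∀ i : Fin c, Finsupp.single (Fin.castLE hcN i) 2 ∈ Φ I) ∧ (∀ d, cnt (Φ I) d = HF I d) ∧
        ∀ I', IsHomog I' → I ≤ I' → Φ I ⊆ Φ I'

theorem ind_zero (K : Type*) [Field K] [IsAlgClosed K] (c : ℕ) : IndStmt K c 0 c le_rfl := by
  intro f hf hd hs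
  have hp : Prim f := prim_of_dim f hf (by simpa using hd)
  obtain ⟨Ψ, hΨ⟩ := exists_canonical c
  have hg : ∀ I : Ideal (MvPolynomial (Fin c) K), IsHomog I → (∀ i, f i ∈ I) →
      ∀ d, G c d (HF I d) (HF I (d + 1)) := growth c f hf hp hs
  refine ⟨fun I => Ψ (fun d => HF I d), fun I hI hfI => ?_⟩
  obtain ⟨h1, h2, h3, h4⟩ := hΨ (fun d => HF I d) (hg I hI hfI)
  exact ⟨h1, h2, h3, fun I' hI' hle => h4 _ (hg I' hI' fun i => hle (hfI i)) fun d => HF_anti hle d⟩

theorem ind_step (K : Type*) [Field K] [IsAlgClosed K] (c m N : ℕ) (hcN : c ≤ N) (IH : IndStmt K c m N hcN) :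
    IndStmt K c (m + 1) (N + 1) (Nat.le_succ_of_le hcN) := by
  intro f hf hd hs
  obtain ⟨l, hl, hl0, hdl⟩ := dim_drop (N := N) m (Ideal.span (Set.range f)) hd
  obtain ⟨σ⟩ := exists_sub l hl hl0
  have hspan : (Ideal.span (Set.range f)).map σ.s = Ideal.span (Set.range (fun i => σ.s (f i))) := by
    rw [Ideal.map_span, ← Set.range_comp]
    rfl
  have hd' := (dim_sub σ (Ideal.span (Set.range f))).trans hdl
  rw [hspan] at hd'
  obtain ⟨Φ, hΦ⟩ := IH (fun i => σ.s (f i)) (fun i => σ.hs _ _ (hf i)) hd' (fun i hi => by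
    obtain ⟨a, b, ha, hb, hab⟩ := hs i hi
    exact ⟨σ.s a, σ.s b, σ.hs _ _ ha, σ.hs _ _ hb, by rw [hab, map_mul]⟩)
  refine ⟨fun I => stack (fun j => Φ ((colN I l j).map σ.s)), fun I hI hfI => ?_⟩
  have hh : ∀ I : Ideal (MvPolynomial (Fin (N + 1)) K), IsHomog I → ∀ j, IsHomog ((colN I l j).map σ.s) :=
    fun I hI j => homog_map_sub σ (colN_homog hI hl j)
  have hle0 : ∀ j, I ≤ colN I l j := fun j => by
    induction j with
    | zero => exact le_rfl
    | succ j ih => exact ih.trans (colN_le_succ I l j)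
  have hmem : ∀ j i, σ.s (f i) ∈ (colN I l j).map σ.s := fun j i =>
    Ideal.mem_map_of_mem _ (hle0 j (hfI i))
  refine ⟨stack_up _ (fun j => (hΦ _ (hh I hI j) (hmem j)).1) (fun j => ?_), fun i => ?_, fun d => ?_, ?_⟩
  · exact (hΦ _ (hh I hI j) (hmem j)).2.2.2 _ (hh I hI (j + 1)) (Ideal.map_mono (colN_le_succ I l j))
  · exact stack_sq _ (Fin.castLE hcN i) ((hΦ _ (hh I hI 0) (hmem 0)).2.1 i)
  · rw [stack_cnt, HF_filtration hI hl d]
    refine Finset.sum_congr rfl fun j _ => ?_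
    rw [(hΦ _ (hh I hI j) (hmem j)).2.2.1, HF_map_sub]
  · intro I' hI' hle
    refine stack_mono _ _ fun j => ?_
    exact (hΦ _ (hh I hI j) (hmem j)).2.2.2 _ (hh I' hI' j) (Ideal.map_mono (colN_mono hle l j))

theorem ind_phi (K : Type*) [Field K] [IsAlgClosed K] (c m : ℕ) :
    IndStmt K c m (c + m) (Nat.le_add_right c m) := by
  induction m with
  | zero => exact ind_zero K c
  | succ m IH => exact ind_step K c m (c + m) (Nat.le_add_right c m) IH

theorem ind_perm_dim {c N m : ℕ} {K : Type*} [Field K] (f : Fin c → MvPolynomial (Fin N) K) (h : c + m = N)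
    (hd : ringKrullDim (MvPolynomial (Fin N) K ⧸ Ideal.span (Set.range f)) + (c : ℕ) ≤ (N : ℕ)) :
    ringKrullDim (MvPolynomial (Fin N) K ⧸ Ideal.span (Set.range f)) ≤ (m : WithBot ℕ∞) := by
  generalize ringKrullDim (MvPolynomial (Fin N) K ⧸ Ideal.span (Set.range f)) = a at hd ⊢
  subst h
  induction a using WithBot.recBotCoe with
  | bot => exact bot_le
  | coe a =>
    have h1 : a + (c : ℕ∞) ≤ ((c + m : ℕ) : ℕ∞) := by exact_mod_cast hd
    have h2 : a ≤ (m : ℕ∞) := by
      induction a using ENat.recTopCoe with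
      | top => rw [top_add] at h1; exact absurd h1 (by simp)
      | coe a =>
        have h3 : a + c ≤ c + m := by exact_mod_cast h1
        have h4 : a ≤ m := by omega
        exact_mod_cast h4
    exact_mod_cast h2

theorem final_gen {K : Type*} [Field K] (L : Type*) [Field L] [Algebra K L] (c N : ℕ) (hcN : c ≤ N)
    (f : Fin c → MvPolynomial (Fin N) K) (hf : ∀ i, (f i).IsHomogeneous 2) (hr : IsRegSeqG f)
    (s : Finset (Fin c)) (hs : s.card ≤ 4)
    (hsplit : ∀ i, i ∉ s → Splits2 (MvPolynomial.map (algebraMap K L) (f i)))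
    (I : Ideal (MvPolynomial (Fin N) K)) (hI : IsHomog I) (hfI : ∀ i, f i ∈ I) :
    ∃ J : Ideal (MvPolynomial (Fin N) K), IsMonomialIdeal J ∧ (∀ i : Fin c, X (Fin.castLE hcN i) ^ 2 ∈ J) ∧
      ∀ d, HF J d = HF I d := by
  obtain ⟨m, rfl⟩ := Nat.exists_eq_add_of_le hcN
  obtain ⟨e, he⟩ := perm_of_card s hs
  have hmap : (algebraMap L (AlgebraicClosure L)).comp (algebraMap K L) = algebraMap K (AlgebraicClosure L) :=
    (IsScalarTower.algebraMap_eq K L (AlgebraicClosure L)).symm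
  have hd := ind_perm_dim (fun i => MvPolynomial.map (algebraMap K (AlgebraicClosure L)) (f i)) rfl
    (dim_regSeq _ (regSeq_baseChange (AlgebraicClosure L) hr))
  have hrange : Set.range (fun i => MvPolynomial.map (algebraMap K (AlgebraicClosure L)) (f (e i))) =
      Set.range (fun i => MvPolynomial.map (algebraMap K (AlgebraicClosure L)) (f i)) :=
    EquivLike.range_comp (fun i => MvPolynomial.map (algebraMap K (AlgebraicClosure L)) (f i)) e
  rw [← hrange] at hd
  obtain ⟨Φ, hΦ⟩ := ind_phi (AlgebraicClosure L) c m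
    (fun i => MvPolynomial.map (algebraMap K (AlgebraicClosure L)) (f (e i)))
    (fun i => (hf (e i)).map _) hd (fun i hi => by
      have h1 := splits2_map (algebraMap L (AlgebraicClosure L)) (hsplit (e i) (he i hi))
      rwa [MvPolynomial.map_map, hmap] at h1)
  obtain ⟨h1, h2, h3, -⟩ := hΦ _ (homog_baseChange (AlgebraicClosure L) hI)
    (fun i => Ideal.mem_map_of_mem _ (hfI (e i)))
  refine ⟨Ideal.span ((fun s => monomial s (1 : K)) ''
    (Φ (I.map (MvPolynomial.map (algebraMap K (AlgebraicClosure L)))))), ⟨_, rfl⟩, fun i => ?_, fun d => ?_⟩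
  · rw [X_pow_eq_monomial]
    exact Ideal.subset_span ⟨_, h2 i, rfl⟩
  · rw [HF_span_up K _ h1 d, h3 d, HF_baseChange (AlgebraicClosure L) hI d]

end Vale.Agent.P200E
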